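import Mathlib

/-! An unbounded sequence of functionals that is pointwise bounded on a dense set gives a
separable infinite-dimensional quotient. -/

namespace Vale.Agent.P129H

open Filter Topology

variable {𝕜 : Type*} [RCLike 𝕜] {X : Type*} [NormedAddCommGroup X] [NormedSpace 𝕜 X]

/-- Points where a sequence of functionals is bounded. -/
def bdd (g : ℕ → X →L[𝕜] 𝕜) : Submodule 𝕜 X where
  carrier := {x | ∃ c : ℝ, ∀ n, ‖g n x‖ ≤ c}
  zero_mem' := ⟨0, fun n => by simp⟩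
  add_mem' := by
    rintro x y ⟨c, hc⟩ ⟨d, hd⟩
    refine ⟨c + d, fun n => ?_⟩
    rw [map_add]
    exact (norm_add_le _ _).trans (add_le_add (hc n) (hd n))
  smul_mem' := by
    rintro a x ⟨c, hc⟩
    refine ⟨‖a‖ * c, fun n => ?_⟩
    rw [map_smul, norm_smul]
    exact mul_le_mul_of_nonneg_left (hc n) (norm_nonneg _)

structure Inv (g : ℕ → X →L[𝕜] 𝕜) (P : X →L[𝕜] X) : Prop where
  maps : ∀ d ∈ bdd g, P d ∈ bdd g
  idem : ∀ x, P (P x) = P x
  rest : ∃ C : ℝ, 0 ≤ C ∧ ∀ n x, ‖g n (x - P x)‖ ≤ C * ‖x‖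

structure Nxt (g : ℕ → X →L[𝕜] 𝕜) (k : ℕ) (P : X →L[𝕜] X) (x : X) (φ : X →L[𝕜] 𝕜) : Prop where
  mem : x ∈ bdd g
  nrm : ‖x‖ ≤ 1
  fix : P x = x
  one : φ x = 1
  fac : ∀ y, φ (P y) = φ y
  sml : ∀ (d : X) (c : ℝ), (∀ n, ‖g n d‖ ≤ c) → ‖φ d‖ ≤ (c + ‖d‖) * (1 / 2) ^ k

theorem exists_nxt {g : ℕ → X →L[𝕜] 𝕜} (hd : Dense (bdd g : Set X))
    (hu : ∀ C : ℝ, ∃ n, C < ‖g n‖) (k : ℕ) {P : X →L[𝕜] X} (hP : Inv g P) :
    ∃ x φ, Nxt g k P x φ := by
  obtain ⟨C, hC0, hC⟩ := hP.rest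
  set K : ℝ := 2 ^ k * (C + 1) with hK
  have hKpos : 0 < K := by positivity
  have : ∃ n, ∃ d ∈ bdd g, K * ‖P d‖ < ‖g n (P d)‖ := by
    by_contra hcon
    push Not at hcon
    obtain ⟨n, hn⟩ := hu (K * ‖P‖ + C)
    refine absurd hn (not_lt.2 ?_)
    refine ContinuousLinearMap.opNorm_le_bound _ (by positivity) ?_
    intro x
    have hcl : IsClosed {x | ‖g n x‖ ≤ (K * ‖P‖ + C) * ‖x‖} :=
      isClosed_le (by fun_prop) (by fun_prop)
    refine closure_minimal (t := {x | ‖g n x‖ ≤ (K * ‖P‖ + C) * ‖x‖}) ?_ hcl (hd x)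
    · intro d hd'
      have h1 := hcon n d hd'
      have h2 := hC n d
      have h3 : g n d = g n (P d) + g n (d - P d) := by simp
      have h4 := norm_add_le (g n (P d)) (g n (d - P d))
      have h5 := mul_le_mul_of_nonneg_left (P.le_opNorm d) hKpos.le
      show ‖g n d‖ ≤ (K * ‖P‖ + C) * ‖d‖
      rw [h3]
      nlinarith
  obtain ⟨n, d, hd1, hd2⟩ := this
  have hne : P d ≠ 0 := by
    intro h
    simp [h] at hd2
  have hn : 0 < ‖P d‖ := norm_pos_iff.2 hne
  let x : X := ((‖P d‖⁻¹ : ℝ) : 𝕜) • P d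
  have hx : K < ‖g n x‖ := by
    simp only [x, map_smul, norm_smul, RCLike.norm_ofReal, abs_of_pos (inv_pos.2 hn)]
    rw [lt_inv_mul_iff₀ hn]
    linarith
  have ht : g n x ≠ 0 := by
    intro h
    rw [h, norm_zero] at hx
    linarith
  have hfix : P x = x := by simp only [x, map_smul, hP.idem]
  refine ⟨x, (g n x)⁻¹ • (g n).comp P, (bdd g).smul_mem _ (hP.maps d hd1), ?_, hfix, ?_, ?_, ?_⟩
  · simp only [x, norm_smul, RCLike.norm_ofReal, abs_of_pos (inv_pos.2 hn)]
    rw [inv_mul_cancel₀ hn.ne']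
  · simp [hfix, ht]
  · intro y
    simp [hP.idem]
  · intro y c hc
    have hc0 : 0 ≤ c := (norm_nonneg _).trans (hc 0)
    have h3 : g n (P y) = g n y - g n (y - P y) := by simp
    have h4 : ‖g n (P y)‖ ≤ c + C * ‖y‖ := by
      rw [h3]
      exact (norm_sub_le _ _).trans (add_le_add (hc n) (hC n y))
    have h5 : ‖((g n x)⁻¹ • (g n).comp P) y‖ = ‖g n (P y)‖ / ‖g n x‖ := by
      simp [norm_inv, div_eq_inv_mul]
    rw [h5, div_le_iff₀ (hKpos.trans hx)]
    have h6 : (c + ‖y‖) * (1 / 2) ^ k * K = (c + ‖y‖) * (C + 1) := by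
      rw [hK, one_div, inv_pow]
      field_simp
    have h7 : (c + ‖y‖) * (1 / 2) ^ k * K ≤ (c + ‖y‖) * (1 / 2) ^ k * ‖g n x‖ :=
      mul_le_mul_of_nonneg_left hx.le (by positivity)
    nlinarith [norm_nonneg y]

theorem Nxt.inv {g : ℕ → X →L[𝕜] 𝕜} {k : ℕ} {P : X →L[𝕜] X} {x : X} {φ : X →L[𝕜] 𝕜}
    (hP : Inv g P) (h : Nxt g k P x φ) : Inv g (P - φ.smulRight x) := by
  refine ⟨fun d hd => ?_, fun y => ?_, ?_⟩
  · exact (bdd g).sub_mem (hP.maps d hd) ((bdd g).smul_mem _ h.mem)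
  · simp [hP.idem, h.fix, h.fac, h.one]
  · obtain ⟨C, hC0, hC⟩ := hP.rest
    obtain ⟨c, hc⟩ := h.mem
    have hc0 : 0 ≤ c := (norm_nonneg _).trans (hc 0)
    refine ⟨C + ‖φ‖ * c, by positivity, fun n y => ?_⟩
    have h1 : g n (y - (P - φ.smulRight x) y) = g n (y - P y) + φ y * g n x := by
      simp
      ring
    rw [h1]
    refine (norm_add_le _ _).trans ?_
    rw [norm_mul]
    have h2 : ‖φ y‖ * ‖g n x‖ ≤ (‖φ‖ * ‖y‖) * c :=
      mul_le_mul (φ.le_opNorm y) (hc n) (norm_nonneg _) (by positivity)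
    have h3 := hC n y
    nlinarith

theorem exists_biorth {g : ℕ → X →L[𝕜] 𝕜} (hd : Dense (bdd g : Set X))
    (hu : ∀ C : ℝ, ∃ n, C < ‖g n‖) :
    ∃ (x : ℕ → X) (φ : ℕ → X →L[𝕜] 𝕜), (∀ k, ‖x k‖ ≤ 1) ∧ (∀ k, φ k (x k) = 1) ∧
      (∀ j k, j ≠ k → φ k (x j) = 0) ∧ ∀ d ∈ bdd g, Summable fun k => ‖φ k d‖ := by
  have h0 : Inv g (ContinuousLinearMap.id 𝕜 X) :=
    ⟨fun d hd => hd, fun x => rfl, 0, le_rfl, fun n x => by simp⟩
  choose x φ hxφ using fun (k : ℕ) (P : {P : X →L[𝕜] X // Inv g P}) => exists_nxt hd hu k P.2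
  let P : ℕ → {P : X →L[𝕜] X // Inv g P} := fun k => Nat.rec ⟨_, h0⟩
    (fun k Q => ⟨Q.1 - (φ k Q).smulRight (x k Q), (hxφ k Q).inv Q.2⟩) k
  have hs : ∀ k y, (P (k + 1)).1 y = (P k).1 y - φ k (P k) y • x k (P k) := fun k y => rfl
  have h : ∀ k, Nxt g k (P k).1 (x k (P k)) (φ k (P k)) := fun k => hxφ k (P k)
  have hA : ∀ j k, j < k → (P k).1 (x j (P j)) = 0 := by
    intro j k hjk
    induction k, hjk using Nat.le_induction with
    | base => rw [hs, (h j).fix, (h j).one, one_smul, sub_self]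
    | succ k _ ih => rw [hs, ← (h k).fac, ih, map_zero, zero_smul, sub_zero]
  have hB : ∀ k j, k < j → ∀ y, φ k (P k) ((P j).1 y) = 0 := by
    intro k j hkj
    induction j, hkj using Nat.le_induction with
    | base =>
      intro y
      rw [hs, map_sub, map_smul, (h k).fac, (h k).one, smul_eq_mul, mul_one, sub_self]
    | succ j _ ih =>
      intro y
      rw [hs, map_sub, map_smul, ih, ← (h j).fix, ih, smul_zero, sub_zero]
  refine ⟨fun k => x k (P k), fun k => φ k (P k), fun k => (h k).nrm, fun k => (h k).one, ?_, ?_⟩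
  · intro j k hjk
    rcases lt_or_gt_of_ne hjk with hlt | hlt
    · show φ k (P k) (x j (P j)) = 0
      rw [← (h k).fac, hA j k hlt, map_zero]
    · show φ k (P k) (x j (P j)) = 0
      rw [← (h j).fix, hB k j hlt]
  · rintro d ⟨c, hc⟩
    refine Summable.of_nonneg_of_le (fun _ => norm_nonneg _) (fun k => (h k).sml d c hc) ?_
    exact summable_geometric_two.mul_left _

theorem sq_of_bdd [CompleteSpace X] {g : ℕ → X →L[𝕜] 𝕜} (hd : Dense (bdd g : Set X))
    (hu : ∀ C : ℝ, ∃ n, C < ‖g n‖) :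
    ∃ M : Submodule 𝕜 X, IsClosed (M : Set X) ∧ TopologicalSpace.SeparableSpace (X ⧸ M) ∧
      ¬ FiniteDimensional 𝕜 (X ⧸ M) := by
  obtain ⟨x, φ, h1, h2, h3, h4⟩ := exists_biorth hd hu
  let M : Submodule 𝕜 X := ⨅ k, LinearMap.ker (φ k).toLinearMap
  have hM : ∀ y, y ∈ M ↔ ∀ k, φ k y = 0 := fun y => by simp [M]
  have hcl : IsClosed (M : Set X) := by
    have : (M : Set X) = ⋂ k, {y | φ k y = 0} := by
      ext y
      simp [hM]
    rw [this]
    exact isClosed_iInter fun k => isClosed_eq (φ k).continuous continuous_const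
  have hq : Continuous M.mkQ := continuous_quot_mk
  refine ⟨M, hcl, ?_, ?_⟩
  · let T : Set X := closure (Submodule.span 𝕜 (Set.range x) : Set X)
    have hT : TopologicalSpace.IsSeparable T :=
      ((Set.countable_range x).isSeparable.span).closure
    have hT2 : TopologicalSpace.IsSeparable (closure (M.mkQ '' T)) := (hT.image hq).closure
    rw [← TopologicalSpace.isSeparable_univ_iff]
    refine hT2.mono ?_
    have hsub : M.mkQ '' (bdd g : Set X) ⊆ M.mkQ '' T := by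
      rintro _ ⟨d, hd', rfl⟩
      have hs : Summable fun k => φ k d • x k := by
        refine Summable.of_norm_bounded (h4 d hd') fun k => ?_
        rw [norm_smul]
        exact mul_le_of_le_one_right (norm_nonneg _) (h1 k)
      refine ⟨∑' k, φ k d • x k, ?_, ?_⟩
      · refine mem_closure_of_tendsto hs.hasSum (Eventually.of_forall fun s => ?_)
        exact Submodule.sum_mem _ fun k _ =>
          Submodule.smul_mem _ _ (Submodule.subset_span (Set.mem_range_self k))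
      · rw [Submodule.mkQ_apply, Submodule.mkQ_apply, Submodule.Quotient.eq, hM]
        intro k
        rw [map_sub, (φ k).map_tsum hs, tsum_eq_single k]
        · simp [h2]
        · intro j hj
          simp [h3 j k hj]
    have hdn : Dense (M.mkQ '' (bdd g : Set X)) :=
      (M.mkQ_surjective.denseRange).dense_image hq hd
    intro y _
    exact closure_mono hsub (hdn y)
  · intro hfin
    have hli : LinearIndependent 𝕜 fun k => M.mkQ (x k) := by
      rw [linearIndependent_iff']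
      intro s a ha k hk
      have h5 : ∑ i ∈ s, a i • x i ∈ M := by
        rw [← Submodule.Quotient.mk_eq_zero, ← Submodule.mkQ_apply, map_sum]
        simpa using ha
      have h6 := (hM _).1 h5 k
      rw [map_sum, Finset.sum_eq_single k] at h6
      · simpa [h2] using h6
      · intro j _ hj
        simp [h3 j k hj]
      · intro hk'
        exact absurd hk hk'
    exact Module.Finite.not_linearIndependent_of_infinite _ hli

end Vale.Agent.P129H
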