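import Vale.Agent.P129H.DR
import Vale.Agent.P129H.SW

namespace Vale.Agent.P129H

open Filter Topology MeasureTheory
open scoped Classical

variable {𝕜 : Type*} [RCLike 𝕜] {X : Type*} [NormedAddCommGroup X] [NormedSpace 𝕜 X]

theorem dual_inf (hX : ¬ FiniteDimensional 𝕜 X) : ¬ FiniteDimensional 𝕜 (X →L[𝕜] 𝕜) := by
  intro h
  apply hX
  have h2 : FiniteDimensional 𝕜 (StrongDual 𝕜 (StrongDual 𝕜 X)) :=
    inferInstanceAs (FiniteDimensional 𝕜 ((X →L[𝕜] 𝕜) →L[𝕜] 𝕜))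
  exact FiniteDimensional.of_injective (V₂ := StrongDual 𝕜 (StrongDual 𝕜 X))
    (NormedSpace.inclusionInDoubleDualLi 𝕜 (E := X)).toLinearMap
    (NormedSpace.inclusionInDoubleDualLi 𝕜 (E := X)).injective

theorem core (hX : ¬ FiniteDimensional 𝕜 X) (N : ℕ → ℕ) (s : ℕ → ℝ) (hs : ∀ n, 0 ≤ s n) :
    ∃ g : ℕ → ℕ → X →L[𝕜] 𝕜, (∀ n i, i < N n → s n / 4 ≤ ‖g n i‖) ∧
      ∀ n x, (((Finset.range (N n)).filter fun i => 1 < ‖g n i x‖).card : ℝ)
        ≤ s n ^ 2 * ‖x‖ ^ 2 := by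
  choose y hy1 hy2 using fun n => dvoretzky_rogers (dual_inf hX) (N n)
  refine ⟨fun n i => if h : i < N n then ((s n : ℝ) : 𝕜) • y n ⟨i, h⟩ else 0, ?_, ?_⟩
  · intro n i hi
    simp only [hi, dite_true, norm_smul, RCLike.norm_ofReal, abs_of_nonneg (hs n)]
    have := mul_le_mul_of_nonneg_left (hy1 n ⟨i, hi⟩) (hs n)
    linarith
  · intro n x
    have h1 := hy2 n (NormedSpace.inclusionInDoubleDualLi 𝕜 x)
    rw [LinearIsometry.norm_map] at h1
    have h2 : ∑ i, ‖y n i x‖ ^ 2 ≤ ‖x‖ ^ 2 := h1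
    refine le_trans ?_ (mul_le_mul_of_nonneg_left h2 (sq_nonneg _))
    rw [Finset.card_filter, Finset.mul_sum, Nat.cast_sum, ← Fin.sum_univ_eq_sum_range
      (fun i => (((if 1 < ‖(if h : i < N n then ((s n : ℝ) : 𝕜) • y n ⟨i, h⟩ else 0) x‖
        then 1 else 0 : ℕ)) : ℝ))]
    refine Finset.sum_le_sum fun i _ => ?_
    simp only [i.2, dite_true, Fin.eta, ContinuousLinearMap.smul_apply, norm_smul,
      RCLike.norm_ofReal, abs_of_nonneg (hs n)]
    split_ifs with h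
    · rw [← mul_pow]
      push_cast
      nlinarith
    · push_cast
      positivity

theorem mem_bdd_of_eventually {g : ℕ → X →L[𝕜] 𝕜} {x : X}
    (h : ∀ᶠ n in atTop, ‖g n x‖ ≤ 1) : x ∈ bdd g := by
  obtain ⟨m, hm⟩ := eventually_atTop.1 h
  refine ⟨1 + ∑ n ∈ Finset.range m, ‖g n x‖, fun n => ?_⟩
  have h0 : 0 ≤ ∑ n ∈ Finset.range m, ‖g n x‖ := Finset.sum_nonneg fun _ _ => norm_nonneg _
  rcases lt_or_ge n m with hn | hn
  · have := Finset.single_le_sum (f := fun n => ‖g n x‖) (fun _ _ => norm_nonneg _)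
      (Finset.mem_range.2 hn)
    linarith
  · have := hm n hn
    linarith

theorem unbdd_of_tendsto {g : ℕ → X →L[𝕜] 𝕜} {s : ℕ → ℝ} (hs : Tendsto s atTop atTop)
    (h : ∀ n, s n / 4 ≤ ‖g n‖) (C : ℝ) : ∃ n, C < ‖g n‖ := by
  obtain ⟨n, hn⟩ := (hs.eventually_gt_atTop (4 * C)).exists
  exact ⟨n, by linarith [h n]⟩

theorem exists_annihilator {D : Submodule 𝕜 X} (h : ¬ Dense (D : Set X)) :
    ∃ φ : X →L[𝕜] 𝕜, ‖φ‖ = 1 ∧ ∀ x ∈ D, φ x = 0 := by
  obtain ⟨z, hz⟩ : ∃ z, z ∉ D.topologicalClosure := by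
    by_contra hc
    push Not at hc
    exact h fun x => hc x
  haveI : IsClosed (D.topologicalClosure : Set X) := D.isClosed_topologicalClosure
  have hz' : ‖D.topologicalClosure.mkQ z‖ ≠ 0 := by
    rw [norm_ne_zero_iff, Submodule.mkQ_apply, Ne, Submodule.Quotient.mk_eq_zero]
    exact hz
  obtain ⟨f, _, hf2⟩ := exists_dual_vector 𝕜 _ hz'
  let q : X →L[𝕜] X ⧸ D.topologicalClosure := ⟨D.topologicalClosure.mkQ, continuous_quot_mk⟩
  have hne : f.comp q ≠ 0 := by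
    intro h0
    have h1 : f (D.topologicalClosure.mkQ z) = 0 := by
      have := congrArg (fun T : X →L[𝕜] 𝕜 => T z) h0
      exact this
    rw [hf2] at h1
    exact hz' (by exact_mod_cast h1)
  have hn : 0 < ‖f.comp q‖ := norm_pos_iff.2 hne
  refine ⟨((‖f.comp q‖⁻¹ : ℝ) : 𝕜) • f.comp q, ?_, fun x hx => ?_⟩
  · rw [norm_smul, RCLike.norm_ofReal, abs_of_pos (inv_pos.2 hn), inv_mul_cancel₀ hn.ne']
  · have h1 : q x = 0 := (Submodule.Quotient.mk_eq_zero _).2 (D.le_topologicalClosure hx)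
    simp [h1]

/-- Random choice of an unbounded sequence of functionals. -/
theorem exists_random (hX : ¬ FiniteDimensional 𝕜 X) :
    ∃ G : ℝ → ℕ → X →L[𝕜] 𝕜, (∀ t C, ∃ n, C < ‖G t n‖) ∧ ∀ x, ∀ᵐ t : ℝ, x ∈ bdd (G t) := by
  let N : ℕ → ℕ := fun n => 2 * (n + 1) * 8 ^ n
  obtain ⟨g, hg1, hg2⟩ := core hX N (fun n => 2 ^ n) (fun n => by positivity)
  let k : ℝ → ℕ → ℕ := fun t n => ⌊(8 : ℝ) ^ n * (t + (n + 1))⌋₊
  let w : ℝ → ℕ → ℕ := fun t n => if k t n < N n then k t n else 0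
  have hw : ∀ t n, w t n < N n := by
    intro t n
    simp only [w]
    split_ifs with h
    · exact h
    · simp only [N]
      positivity
  refine ⟨fun t n => g n (w t n), fun t C => unbdd_of_tendsto
    (tendsto_pow_atTop_atTop_of_one_lt (r := (2 : ℝ)) (by norm_num))
    (fun n => hg1 n _ (hw t n)) C, fun x => ?_⟩
  let I : ℕ → Finset ℕ := fun n => (Finset.range (N n)).filter fun i => 1 < ‖g n i x‖
  let B : ℕ → Set ℝ := fun n => ⋃ i ∈ I n,
    Set.Icc ((i : ℝ) / 8 ^ n - (n + 1)) (((i : ℝ) + 1) / 8 ^ n - (n + 1))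
  have hB : ∀ n, volume (B n) ≤ ENNReal.ofReal (‖x‖ ^ 2 * (1 / 2) ^ n) := by
    intro n
    refine (measure_biUnion_finset_le _ _).trans ?_
    have h1 : ∀ i ∈ I n, volume (Set.Icc ((i : ℝ) / 8 ^ n - (n + 1))
        (((i : ℝ) + 1) / 8 ^ n - (n + 1))) = ENNReal.ofReal (1 / 8 ^ n) := by
      intro i _
      rw [Real.volume_Icc]
      congr 1
      ring
    rw [Finset.sum_congr rfl h1, Finset.sum_const, nsmul_eq_mul, ← ENNReal.ofReal_natCast,
      ← ENNReal.ofReal_mul (Nat.cast_nonneg _)]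
    apply ENNReal.ofReal_le_ofReal
    have h2 : ((I n).card : ℝ) ≤ (2 ^ n) ^ 2 * ‖x‖ ^ 2 := hg2 n x
    have h3 : (8 : ℝ) ^ n = (2 ^ n) ^ 2 * 2 ^ n := by
      rw [← pow_mul, ← pow_add, show (8 : ℝ) = 2 ^ 3 by norm_num, ← pow_mul]
      congr 1
      ring
    have h4 : ‖x‖ ^ 2 * (1 / 2) ^ n = ((2 ^ n) ^ 2 * ‖x‖ ^ 2) * (1 / 8 ^ n) := by
      rw [h3, one_div, inv_pow]
      field_simp
    rw [h4]
    exact mul_le_mul_of_nonneg_right h2 (by positivity)
  have hsum : ∑' n, volume (B n) ≠ ⊤ := by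
    refine ne_top_of_le_ne_top ?_ (ENNReal.tsum_le_tsum hB)
    rw [← ENNReal.ofReal_tsum_of_nonneg (fun n => by positivity)
      (summable_geometric_two.mul_left _)]
    exact ENNReal.ofReal_ne_top
  filter_upwards [ae_eventually_notMem hsum] with t ht
  apply mem_bdd_of_eventually
  have hbig : ∀ᶠ n : ℕ in atTop, |t| < (n : ℝ) + 1 := by
    filter_upwards [tendsto_natCast_atTop_atTop.eventually_gt_atTop |t|] with n hn
    linarith
  filter_upwards [ht, hbig] with n hn1 hn2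
  obtain ⟨h1, h2⟩ := abs_lt.1 hn2
  have h8 : (0 : ℝ) < 8 ^ n := by positivity
  have hnn : 0 ≤ (8 : ℝ) ^ n * (t + (n + 1)) := mul_nonneg h8.le (by linarith)
  have hk : k t n < N n := by
    simp only [k, N]
    rw [Nat.floor_lt hnn]
    push_cast
    nlinarith
  have hwk : w t n = k t n := by simp only [w, hk, if_true]
  by_contra hc
  apply hn1
  simp only [B, Set.mem_iUnion]
  refine ⟨k t n, Finset.mem_filter.2 ⟨Finset.mem_range.2 hk, ?_⟩, ?_, ?_⟩
  · rw [← hwk]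
    exact not_le.1 hc
  · have := Nat.floor_le hnn
    rw [sub_le_iff_le_add, div_le_iff₀ h8]
    simp only [k]
    linarith
  · have := Nat.lt_floor_add_one ((8 : ℝ) ^ n * (t + (n + 1)))
    rw [le_sub_iff_add_le, le_div_iff₀ h8]
    simp only [k]
    linarith

/-- Slalom form. -/
theorem exists_slaloms (hX : ¬ FiniteDimensional 𝕜 X) (b h : ℕ → ℕ)
    (hh : Tendsto h atTop atTop) :
    ∃ (g : ℕ → ℕ → X →L[𝕜] 𝕜) (S : X → ℕ → Finset ℕ), (∀ x n, (S x n).card ≤ h n) ∧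
      ∀ w : ℕ → ℕ, (∀ n, w n < b n) → (∀ C, ∃ n, C < ‖g n (w n)‖) ∧
        ∀ x, (∀ᶠ n in atTop, w n ∉ S x n) → x ∈ bdd fun n => g n (w n) := by
  let s : ℕ → ℝ := fun n => Real.sqrt (Real.sqrt (h n))
  have h1 : Tendsto (fun n => Real.sqrt (h n)) atTop atTop :=
    Real.tendsto_sqrt_atTop.comp (tendsto_natCast_atTop_atTop.comp hh)
  have h2 : Tendsto s atTop atTop := Real.tendsto_sqrt_atTop.comp h1
  obtain ⟨g, hg1, hg2⟩ := core hX b s (fun n => Real.sqrt_nonneg _)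
  let I : X → ℕ → Finset ℕ := fun x n => (Finset.range (b n)).filter fun i => 1 < ‖g n i x‖
  refine ⟨g, fun x n => if (I x n).card ≤ h n then I x n else ∅, ?_, fun w hw => ⟨fun C =>
    unbdd_of_tendsto h2 (fun n => hg1 n _ (hw n)) C, fun x hx => ?_⟩⟩
  · intro x n
    show (if (I x n).card ≤ h n then I x n else ∅).card ≤ h n
    split_ifs with hc
    · exact hc
    · simp
  · apply mem_bdd_of_eventually
    filter_upwards [hx, h1.eventually_ge_atTop (‖x‖ ^ 2)] with n hn1 hn2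
    have h3 : ((I x n).card : ℝ) ≤ s n ^ 2 * ‖x‖ ^ 2 := hg2 n x
    have h4 : s n ^ 2 = Real.sqrt (h n) := Real.sq_sqrt (Real.sqrt_nonneg _)
    have h5 : Real.sqrt (h n) * Real.sqrt (h n) = h n := Real.mul_self_sqrt (Nat.cast_nonneg _)
    have h6 : (I x n).card ≤ h n := by
      have : ((I x n).card : ℝ) ≤ h n := by
        rw [h4] at h3
        nlinarith [Real.sqrt_nonneg (h n : ℝ)]
      exact_mod_cast this
    simp only [h6, if_true] at hn1
    by_contra hc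
    exact hn1 (Finset.mem_filter.2 ⟨Finset.mem_range.2 (hw n), not_le.1 hc⟩)

end Vale.Agent.P129H
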