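import Mathlib

/-! Dvoretzky-Rogers lemma via a map of maximal determinant. -/

namespace Vale.Agent.P129H

open Module

variable {𝕜 : Type*} [RCLike 𝕜]

theorem det_id_add_proj {H : Type*} [NormedAddCommGroup H] [InnerProductSpace 𝕜 H]
    [FiniteDimensional 𝕜 H] (K : Submodule 𝕜 H) :
    LinearMap.det ((LinearMap.id : H →ₗ[𝕜] H) + K.starProjection.toLinearMap)
      = 2 ^ finrank 𝕜 K := by
  let e := K.prodEquivOfIsCompl _ K.isCompl_orthogonal
  let b := (finBasis 𝕜 K).prod (finBasis 𝕜 Kᗮ)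
  have h1 : ∀ x : K, K.starProjection (x : H) = x := fun x =>
    Submodule.starProjection_eq_self_iff.2 x.2
  have h2 : ∀ x : Kᗮ, K.starProjection (x : H) = 0 := fun x =>
    (Submodule.starProjection_apply_eq_zero_iff K).2 x.2
  have : LinearMap.toMatrix b b (e.symm ∘ₗ
      ((LinearMap.id : H →ₗ[𝕜] H) + K.starProjection.toLinearMap) ∘ₗ e.symm.symm) =
      Matrix.fromBlocks ((2 : 𝕜) • 1) 0 0 1 := by
    ext (_ | _) (_ | _) <;>
    simp [LinearMap.toMatrix_apply, b, Matrix.one_apply, Finsupp.single_apply, e, eq_comm,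
      h1, h2, ← two_mul]
  rw [← LinearMap.det_conj _ e.symm, ← LinearMap.det_toMatrix b, this, Matrix.det_fromBlocks_zero₂₁,
    Matrix.det_one, mul_one, Matrix.det_smul, Fintype.card_fin, Matrix.det_one, mul_one]

theorem john {H Y : Type*} [NormedAddCommGroup H] [InnerProductSpace 𝕜 H]
    [FiniteDimensional 𝕜 H] [NormedAddCommGroup Y] [NormedSpace 𝕜 Y] (u : H →L[𝕜] Y)
    (hu : Function.Injective u) {N : ℕ} (hN : 1 ≤ N) (hH : finrank 𝕜 H = 2 * N) :
    ∃ v : H →L[𝕜] Y, (∀ a, ‖v a‖ ≤ ‖a‖) ∧ ∀ K : Submodule 𝕜 H, N ≤ finrank 𝕜 K →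
      ∃ e ∈ K, ‖e‖ = 1 ∧ 1 / 4 ≤ ‖v e‖ := by
  haveI : ProperSpace (H →L[𝕜] H) := FiniteDimensional.proper_rclike 𝕜 _
  obtain ⟨C, _, hC⟩ := LinearMap.exists_antilipschitzWith u.toLinearMap
    (LinearMap.ker_eq_bot.2 hu)
  have hC' : ∀ a, ‖a‖ ≤ C * ‖u a‖ := fun a => by
    have := hC.le_mul_dist a 0
    simpa using this
  let S : Set (H →L[𝕜] H) := {A | ∀ a, ‖u (A a)‖ ≤ ‖a‖}
  have hcl : IsClosed S := by
    have : S = ⋂ a, {A : H →L[𝕜] H | ‖u (A a)‖ ≤ ‖a‖} := by
      ext A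
      simp [S]
    rw [this]
    refine isClosed_iInter fun a => isClosed_le ?_ continuous_const
    fun_prop
  have hbd : Bornology.IsBounded S := by
    refine (Metric.isBounded_closedBall (x := (0 : H →L[𝕜] H)) (r := C)).subset ?_
    intro A hA
    rw [mem_closedBall_zero_iff]
    refine ContinuousLinearMap.opNorm_le_bound _ C.2 fun a => ?_
    exact (hC' _).trans (mul_le_mul_of_nonneg_left (hA a) C.2)
  have hcp : IsCompact S := Metric.isCompact_of_isClosed_isBounded hcl hbd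
  have hpos : (0 : ℝ) < ‖u‖ + 1 := by positivity
  let c : 𝕜 := ((1 / (‖u‖ + 1) : ℝ) : 𝕜)
  have hc : ‖c‖ = 1 / (‖u‖ + 1) := by
    simp only [c, RCLike.norm_ofReal]
    exact abs_of_pos (by positivity)
  have h0 : (c • ContinuousLinearMap.id 𝕜 H) ∈ S := by
    intro a
    simp only [ContinuousLinearMap.smul_apply, ContinuousLinearMap.id_apply, map_smul, norm_smul,
      hc]
    have := u.le_opNorm a
    rw [div_mul_eq_mul_div, one_mul, div_le_iff₀ hpos]
    nlinarith [norm_nonneg a]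
  obtain ⟨A, hA, hmax⟩ := hcp.exists_isMaxOn ⟨_, h0⟩
    (f := fun A : H →L[𝕜] H => ‖A.det‖)
    (ContinuousLinearMap.continuous_det.norm.continuousOn)
  have hdet : 0 < ‖A.det‖ := by
    refine lt_of_lt_of_le ?_ (hmax h0)
    have : (c • ContinuousLinearMap.id 𝕜 H).det = c ^ finrank 𝕜 H := by
      unfold ContinuousLinearMap.det
      rw [ContinuousLinearMap.coe_smul, LinearMap.det_smul]
      simp
    show 0 < ‖(c • ContinuousLinearMap.id 𝕜 H).det‖
    rw [this, norm_pow, hc]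
    positivity
  refine ⟨u.comp A, hA, ?_⟩
  intro K hK
  by_contra hcon
  push Not at hcon
  have hsm : ∀ y ∈ K, ‖u (A y)‖ ≤ 1 / 4 * ‖y‖ := by
    intro y hy
    by_cases hy0 : y = 0
    · simp [hy0]
    · have hn : 0 < ‖y‖ := norm_pos_iff.2 hy0
      have h1 := hcon (((‖y‖⁻¹ : ℝ) : 𝕜) • y) (K.smul_mem _ hy) (by
        rw [norm_smul, RCLike.norm_ofReal, abs_of_pos (inv_pos.2 hn), inv_mul_cancel₀ hn.ne'])
      simp only [map_smul, norm_smul, RCLike.norm_ofReal, abs_of_pos (inv_pos.2 hn),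
        ContinuousLinearMap.comp_apply] at h1
      rw [inv_mul_lt_iff₀ hn] at h1
      linarith
  let T : H →L[𝕜] H := ContinuousLinearMap.id 𝕜 H + K.starProjection
  let d : 𝕜 := ((4 / 5 : ℝ) : 𝕜)
  have hd : ‖d‖ = 4 / 5 := by
    simp only [d, RCLike.norm_ofReal]
    norm_num
  have h1 : (d • A.comp T) ∈ S := by
    intro a
    simp only [ContinuousLinearMap.smul_apply, ContinuousLinearMap.comp_apply, T,
      ContinuousLinearMap.add_apply, ContinuousLinearMap.id_apply, map_smul, map_add, norm_smul, hd]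
    have h2 := hA a
    have h3 := hsm _ (K.starProjection_apply_mem a)
    have h4 := K.norm_starProjection_apply_le a
    have h5 := norm_add_le (u (A a)) (u (A (K.starProjection a)))
    linarith
  have h2 : (d • A.comp T).det = d ^ (2 * N) * (A.det * 2 ^ finrank 𝕜 K) := by
    unfold ContinuousLinearMap.det
    rw [ContinuousLinearMap.coe_smul, LinearMap.det_smul, hH, ← det_id_add_proj K,
      ← LinearMap.det_comp]
    rfl
  have h3 : ‖(d • A.comp T).det‖ ≤ ‖A.det‖ := hmax h1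
  rw [h2, norm_mul, norm_mul, norm_pow, norm_pow, hd, RCLike.norm_two] at h3
  have h4 : (2 : ℝ) ^ N ≤ 2 ^ finrank 𝕜 K := pow_le_pow_right₀ (by norm_num) hK
  have h5 : (1 : ℝ) < (4 / 5) ^ (2 * N) * 2 ^ N := by
    rw [pow_mul, ← mul_pow]
    exact one_lt_pow₀ (by norm_num) (by omega)
  have h6 : (0 : ℝ) < (4 / 5) ^ (2 * N) := by positivity
  have h7 : (4 / 5 : ℝ) ^ (2 * N) * 2 ^ N ≤ (4 / 5) ^ (2 * N) * 2 ^ finrank 𝕜 K :=
    mul_le_mul_of_nonneg_left h4 h6.le
  nlinarith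

/-- Dvoretzky-Rogers lemma. -/
theorem dvoretzky_rogers {Y : Type*} [NormedAddCommGroup Y] [NormedSpace 𝕜 Y]
    (hY : ¬ FiniteDimensional 𝕜 Y) (N : ℕ) :
    ∃ y : Fin N → Y, (∀ i, 1 / 4 ≤ ‖y i‖) ∧
      ∀ ψ : Y →L[𝕜] 𝕜, ∑ i, ‖ψ (y i)‖ ^ 2 ≤ ‖ψ‖ ^ 2 := by
  rcases Nat.eq_zero_or_pos N with rfl | hN
  · exact ⟨fun i => i.elim0, fun i => i.elim0, fun ψ => by simp⟩
  have hr : ((2 * N : ℕ) : Cardinal) ≤ Module.rank 𝕜 Y := by
    by_contra h
    apply hY
    exact Module.rank_lt_aleph0_iff.1 ((not_le.1 h).trans (Cardinal.natCast_lt_aleph0))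
  obtain ⟨f, hf⟩ := Module.le_rank_iff_exists_linearMap.1 hr
  let H := EuclideanSpace 𝕜 (Fin (2 * N))
  let u : H →L[𝕜] Y := LinearMap.toContinuousLinearMap
    (f ∘ₗ (EuclideanSpace.equiv (Fin (2 * N)) 𝕜).toLinearEquiv.toLinearMap)
  have hu : Function.Injective u := hf.comp (EuclideanSpace.equiv (Fin (2 * N)) 𝕜).injective
  have hH : finrank 𝕜 H = 2 * N := by simp [H]
  obtain ⟨v, hv1, hv2⟩ := john u hu hN hH
  have key : ∀ j ≤ N, ∃ e : Fin j → H, Orthonormal 𝕜 e ∧ ∀ i, 1 / 4 ≤ ‖v (e i)‖ := by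
    intro j
    induction j with
    | zero => exact fun _ => ⟨fun i => i.elim0, Orthonormal.of_isEmpty _, fun i => i.elim0⟩
    | succ j ih =>
      intro hj
      obtain ⟨e, he1, he2⟩ := ih (by omega)
      have h1 := (Submodule.span 𝕜 (Set.range e)).finrank_add_finrank_orthogonal
      have h2 : finrank 𝕜 (Submodule.span 𝕜 (Set.range e)) ≤ j := by
        simpa [Set.finrank] using finrank_range_le_card (R := 𝕜) e
      obtain ⟨x, hx1, hx2, hx3⟩ := hv2 (Submodule.span 𝕜 (Set.range e))ᗮ (by omega)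
      refine ⟨Matrix.vecCons x e, orthonormal_vecCons_iff.2 ⟨hx2, ?_, he1⟩, ?_⟩
      · intro i
        exact Submodule.inner_left_of_mem_orthogonal
          (Submodule.subset_span (Set.mem_range_self i)) hx1
      · intro i
        refine Fin.cases ?_ (fun i => ?_) i
        · simpa using hx3
        · simpa using he2 i
  obtain ⟨e, he1, he2⟩ := key N le_rfl
  refine ⟨fun i => v (e i), he2, fun ψ => ?_⟩
  let w : H := (InnerProductSpace.toDual 𝕜 H).symm (ψ.comp v)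
  have hw : ‖w‖ ≤ ‖ψ‖ := by
    rw [LinearIsometryEquiv.norm_map]
    refine ContinuousLinearMap.opNorm_le_bound _ (norm_nonneg _) fun a => ?_
    exact (ψ.le_opNorm _).trans (mul_le_mul_of_nonneg_left (hv1 a) (norm_nonneg _))
  have h1 := he1.sum_inner_products_le (s := Finset.univ) w
  have h2 : ∀ i, ‖ψ (v (e i))‖ = ‖inner 𝕜 (e i) w‖ := by
    intro i
    rw [norm_inner_symm, InnerProductSpace.toDual_symm_apply]
    rfl
  simp only [h2]
  exact h1.trans (pow_le_pow_left₀ (norm_nonneg _) hw 2)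

end Vale.Agent.P129H
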